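import Mathlib

namespace Vale.Agent.Lib.P147

open MeasureTheory

/-- The nearest-neighbour step of `ℤ^d` indexed by `(i, s)` with `s = 1` or `s = -1`:
the vector `s • e_i`. -/
def step {d : ℕ} (e : Fin d × Units ℤ) : Fin d → ℤ := Pi.single e.1 (e.2 : ℤ)

/-- `Q` is the quenched law `P_{0,ω}` on path space: the law of the Markov chain started at `0`
which jumps from `x` to `x + step e` with probability `ω x e`. -/
structure IsQuenchedLaw {d : ℕ} (ω : (Fin d → ℤ) → Fin d × Units ℤ → ℝ)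
    (Q : Measure (ℕ → Fin d → ℤ)) : Prop where
  isProb : IsProbabilityMeasure Q
  start : Q {X | X 0 = 0} = 1
  trans : ∀ (n : ℕ) (x : ℕ → Fin d → ℤ) (e : Fin d × Units ℤ),
    Q {X | (∀ k ≤ n, X k = x k) ∧ X (n + 1) = x n + step e} =
      Q {X | ∀ k ≤ n, X k = x k} * ENNReal.ofReal (ω (x n) e)

end Vale.Agent.Lib.P147
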