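import Vale.Agent.Lib.P147.Submart

namespace Vale.Agent.Lib.P147

open MeasureTheory Filter Topology

variable {d : ℕ}

/-- Quenched statement: in an environment whose drift in direction `ℓ` is nonnegative at every
site, the walk almost surely does not tend to `-∞` in direction `ℓ`. -/
theorem quenched_atBot_null (ℓ : Fin d → ℝ) (ω : (Fin d → ℤ) → Fin d × Units ℤ → ℝ)
    (hω : ∀ x, ω x ∈ stdSimplex ℝ (Fin d × Units ℤ))
    (hdrift : ∀ x, 0 ≤ ∑ e, ω x e * ∑ i, ℓ i * (step e i : ℝ))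
    (Q : Measure (ℕ → Fin d → ℤ)) (hQ : IsQuenchedLaw ω Q) :
    Q {X | Tendsto (fun n => ∑ i, ℓ i * (X n i : ℝ)) atTop atBot} = 0 :=
  quenched_not_atBot hQ hω ℓ hdrift

/-- Quenched statement: in an environment whose drift in direction `ℓ` is nonpositive at every
site, the walk almost surely does not tend to `+∞` in direction `ℓ`. -/
theorem quenched_atTop_null (ℓ : Fin d → ℝ) (ω : (Fin d → ℤ) → Fin d × Units ℤ → ℝ)
    (hω : ∀ x, ω x ∈ stdSimplex ℝ (Fin d × Units ℤ))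
    (hdrift : ∀ x, ∑ e, ω x e * ∑ i, ℓ i * (step e i : ℝ) ≤ 0)
    (Q : Measure (ℕ → Fin d → ℤ)) (hQ : IsQuenchedLaw ω Q) :
    Q {X | Tendsto (fun n => ∑ i, ℓ i * (X n i : ℝ)) atTop atTop} = 0 := by
  have h := quenched_atBot_null (fun i => - ℓ i) ω hω ?_ Q hQ
  · have hset : {X : ℕ → Fin d → ℤ | Tendsto (fun n => ∑ i, ℓ i * (X n i : ℝ)) atTop atTop} =
        {X | Tendsto (fun n => ∑ i, (- ℓ i) * (X n i : ℝ)) atTop atBot} := by
      ext X
      simp only [Set.mem_ofPred_eq, neg_mul, Finset.sum_neg_distrib]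
      exact tendsto_neg_atBot_iff.symm
    rw [hset]
    exact h
  · intro x
    have := hdrift x
    simp only [neg_mul, Finset.sum_neg_distrib, mul_neg]
    linarith

/-- For the iid environment law with marginal `μ`, almost every environment has all its rows in
any set of full `μ`-measure. -/
theorem ae_infinitePi_forall (μ : Measure (Fin d × Units ℤ → ℝ)) [IsProbabilityMeasure μ]
    (P : (Fin d × Units ℤ → ℝ) → Prop) (hP : ∀ᵐ p ∂μ, P p) :
    ∀ᵐ ω ∂(Measure.infinitePi fun _ : Fin d → ℤ => μ), ∀ x, P (ω x) := by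
  rw [ae_all_iff]
  intro x
  exact (measurePreserving_eval_infinitePi (fun _ : Fin d → ℤ => μ) x).quasiMeasurePreserving.ae hP

theorem iid_atBot_null (ℓ : Fin d → ℝ) (μ : Measure (Fin d × Units ℤ → ℝ)) [IsProbabilityMeasure μ]
    (hμ : ∀ᵐ p ∂μ, p ∈ stdSimplex ℝ (Fin d × Units ℤ))
    (hdrift : ∀ᵐ p ∂μ, 0 ≤ ∑ e, p e * ∑ i, ℓ i * (step e i : ℝ)) :
    ∀ᵐ ω ∂(Measure.infinitePi fun _ : Fin d → ℤ => μ),
      ∀ Q : Measure (ℕ → Fin d → ℤ), IsQuenchedLaw ω Q →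
        Q {X | Tendsto (fun n => ∑ i, ℓ i * (X n i : ℝ)) atTop atBot} = 0 := by
  filter_upwards [ae_infinitePi_forall μ _ hμ, ae_infinitePi_forall μ _ hdrift] with ω h1 h2 Q hQ
  exact quenched_atBot_null ℓ ω h1 h2 Q hQ

theorem iid_atTop_null (ℓ : Fin d → ℝ) (μ : Measure (Fin d × Units ℤ → ℝ)) [IsProbabilityMeasure μ]
    (hμ : ∀ᵐ p ∂μ, p ∈ stdSimplex ℝ (Fin d × Units ℤ))
    (hdrift : ∀ᵐ p ∂μ, ∑ e, p e * ∑ i, ℓ i * (step e i : ℝ) ≤ 0) :
    ∀ᵐ ω ∂(Measure.infinitePi fun _ : Fin d → ℤ => μ),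
      ∀ Q : Measure (ℕ → Fin d → ℤ), IsQuenchedLaw ω Q →
        Q {X | Tendsto (fun n => ∑ i, ℓ i * (X n i : ℝ)) atTop atTop} = 0 := by
  filter_upwards [ae_infinitePi_forall μ _ hμ, ae_infinitePi_forall μ _ hdrift] with ω h1 h2 Q hQ
  exact quenched_atTop_null ℓ ω h1 h2 Q hQ

end Vale.Agent.Lib.P147
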