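import Vale.Agent.Lib.P147.Defs

namespace Vale.Agent.Lib.P147

open MeasureTheory Filter Topology

variable {d : ℕ}

/-- cylinder set of paths agreeing with `x` up to time `n` -/
def cyl (n : ℕ) (x : ℕ → Fin d → ℤ) : Set (ℕ → Fin d → ℤ) := {X | ∀ k ≤ n, X k = x k}

/-- cylinder set together with the next step -/
def cylStep (n : ℕ) (x : ℕ → Fin d → ℤ) (e : Fin d × Units ℤ) : Set (ℕ → Fin d → ℤ) :=
  {X | (∀ k ≤ n, X k = x k) ∧ X (n + 1) = x n + step e}

lemma measurableSet_coord (k : ℕ) (y : Fin d → ℤ) :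
    MeasurableSet {X : ℕ → Fin d → ℤ | X k = y} := by
  have : {X : ℕ → Fin d → ℤ | X k = y} = (fun X : ℕ → Fin d → ℤ => X k) ⁻¹' {y} := by
    ext X
    simp
  rw [this]
  exact measurable_pi_apply k (measurableSet_singleton y)

lemma measurableSet_cyl (n : ℕ) (x : ℕ → Fin d → ℤ) : MeasurableSet (cyl n x) := by
  have : cyl n x = ⋂ k ∈ Finset.range (n + 1), {X : ℕ → Fin d → ℤ | X k = x k} := by
    ext X
    simp [cyl]
  rw [this]
  exact Finset.measurableSet_biInter _ (fun k _ => measurableSet_coord k (x k))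

lemma cylStep_eq (n : ℕ) (x : ℕ → Fin d → ℤ) (e : Fin d × Units ℤ) :
    cylStep n x e = cyl n x ∩ {X | X (n + 1) = x n + step e} := rfl

lemma measurableSet_cylStep (n : ℕ) (x : ℕ → Fin d → ℤ) (e : Fin d × Units ℤ) :
    MeasurableSet (cylStep n x e) :=
  (measurableSet_cyl n x).inter (measurableSet_coord _ _)

lemma step_injective : Function.Injective (step (d := d)) := by
  rintro ⟨i, s⟩ ⟨j, t⟩ h
  have h1 := congrFun h i
  simp only [step, Pi.single_eq_same] at h1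
  by_cases hij : i = j
  · subst hij
    simp only [Pi.single_eq_same] at h1
    have : s = t := Units.ext h1
    rw [this]
  · rw [Pi.single_eq_of_ne hij] at h1
    exact absurd h1 (Units.ne_zero s)

lemma cylStep_disjoint (n : ℕ) (x : ℕ → Fin d → ℤ) :
    Pairwise (Function.onFun Disjoint (cylStep n x)) := by
  intro e e' hee
  rw [Function.onFun, Set.disjoint_left]
  rintro X ⟨_, h1⟩ ⟨_, h2⟩
  rw [h1] at h2
  exact hee (step_injective (add_left_cancel h2))

variable {ω : (Fin d → ℤ) → Fin d × Units ℤ → ℝ} {Q : Measure (ℕ → Fin d → ℤ)}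

lemma measure_iUnion_cylStep (hQ : IsQuenchedLaw ω Q) (hω : ∀ x, ω x ∈ stdSimplex ℝ (Fin d × Units ℤ))
    (n : ℕ) (x : ℕ → Fin d → ℤ) : Q (⋃ e, cylStep n x e) = Q (cyl n x) := by
  rw [measure_iUnion (cylStep_disjoint n x) (measurableSet_cylStep n x), tsum_fintype]
  have : ∀ e, Q (cylStep n x e) = Q (cyl n x) * ENNReal.ofReal (ω (x n) e) := hQ.trans n x
  simp_rw [this]
  rw [← Finset.mul_sum, ← ENNReal.ofReal_sum_of_nonneg (fun e _ => (hω (x n)).1 e), (hω (x n)).2]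
  simp

lemma iUnion_cylStep_subset (n : ℕ) (x : ℕ → Fin d → ℤ) : (⋃ e, cylStep n x e) ⊆ cyl n x := by
  intro X hX
  obtain ⟨e, he⟩ := Set.mem_iUnion.1 hX
  exact he.1

lemma measure_cyl_diff (hQ : IsQuenchedLaw ω Q) (hω : ∀ x, ω x ∈ stdSimplex ℝ (Fin d × Units ℤ))
    (n : ℕ) (x : ℕ → Fin d → ℤ) : Q (cyl n x \ ⋃ e, cylStep n x e) = 0 := by
  have := hQ.isProb
  rw [measure_sdiff (iUnion_cylStep_subset n x)
    (MeasurableSet.iUnion (measurableSet_cylStep n x)).nullMeasurableSet (measure_ne_top _ _),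
    measure_iUnion_cylStep hQ hω]
  simp

lemma ae_eq_iUnion_cylStep (hQ : IsQuenchedLaw ω Q) (hω : ∀ x, ω x ∈ stdSimplex ℝ (Fin d × Units ℤ))
    (n : ℕ) (x : ℕ → Fin d → ℤ) : (⋃ e, cylStep n x e) =ᵐ[Q] cyl n x := by
  have := hQ.isProb
  exact ae_eq_of_subset_of_measure_ge (iUnion_cylStep_subset n x)
    (measure_iUnion_cylStep hQ hω n x).ge
    (MeasurableSet.iUnion (measurableSet_cylStep n x)).nullMeasurableSet (measure_ne_top _ _)

/-- extension of a finite path to an infinite one -/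
def extPath (n : ℕ) (b : (j : Set.Iic n) → Fin d → ℤ) : ℕ → Fin d → ℤ :=
  fun k => if h : k ∈ Set.Iic n then b ⟨k, h⟩ else 0

lemma mem_cyl_extPath (n : ℕ) (b : (j : Set.Iic n) → Fin d → ℤ) (X : ℕ → Fin d → ℤ) :
    X ∈ cyl n (extPath n b) ↔ Preorder.restrictLe n X = b := by
  constructor
  · intro h
    funext j
    have := h j.1 j.2
    simp only [extPath] at this
    rw [dif_pos j.2] at this
    exact this
  · intro h k hk
    simp only [extPath]
    rw [dif_pos (Set.mem_Iic.2 hk), ← h]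
    rfl

lemma ae_step (hQ : IsQuenchedLaw ω Q) (hω : ∀ x, ω x ∈ stdSimplex ℝ (Fin d × Units ℤ)) :
    ∀ᵐ X ∂Q, ∀ n, ∃ e, X (n + 1) = X n + step e := by
  rw [ae_all_iff]
  intro n
  have hnull : Q (⋃ b : (j : Set.Iic n) → Fin d → ℤ,
      (cyl n (extPath n b) \ ⋃ e, cylStep n (extPath n b) e)) = 0 :=
    measure_iUnion_null (fun b => measure_cyl_diff hQ hω n _)
  rw [ae_iff]
  refine measure_mono_null ?_ hnull
  intro X hX
  simp only [Set.mem_ofPred_eq, not_exists] at hX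
  refine Set.mem_iUnion.2 ⟨Preorder.restrictLe n X, ?_⟩
  have hmem : X ∈ cyl n (extPath n (Preorder.restrictLe n X)) := (mem_cyl_extPath n _ X).2 rfl
  refine ⟨hmem, ?_⟩
  intro hU
  obtain ⟨e, he⟩ := Set.mem_iUnion.1 hU
  apply hX e
  have h2 := he.2
  have h3 := hmem n le_rfl
  rw [h2, h3]

lemma ae_start (hQ : IsQuenchedLaw ω Q) : ∀ᵐ X ∂Q, X 0 = 0 := by
  have := hQ.isProb
  have h := hQ.start
  rw [ae_iff]
  have : {X : ℕ → Fin d → ℤ | ¬ X 0 = 0} = {X | X 0 = 0}ᶜ := rfl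
  rw [this, prob_compl_eq_zero_iff (measurableSet_coord 0 0)]
  exact h

/-- the projection of the walk on the direction `ℓ` -/
def proj (ℓ : Fin d → ℝ) (n : ℕ) (X : ℕ → Fin d → ℤ) : ℝ := ∑ i, ℓ i * (X n i : ℝ)

/-- the value of a step in direction `ℓ` -/
def stepVal (ℓ : Fin d → ℝ) (e : Fin d × Units ℤ) : ℝ := ∑ i, ℓ i * (step e i : ℝ)

lemma proj_succ_of_step (ℓ : Fin d → ℝ) (n : ℕ) (X : ℕ → Fin d → ℤ) (y : Fin d → ℤ)
    (e : Fin d × Units ℤ) (hn : X n = y) (h : X (n + 1) = y + step e) :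
    proj ℓ (n + 1) X - proj ℓ n X = stepVal ℓ e := by
  simp only [proj, stepVal, h, hn, Pi.add_apply, Int.cast_add]
  rw [← Finset.sum_sub_distrib]
  refine Finset.sum_congr rfl (fun i _ => ?_)
  ring

lemma abs_stepVal_le (ℓ : Fin d → ℝ) (e : Fin d × Units ℤ) : |stepVal ℓ e| ≤ ∑ i, |ℓ i| := by
  have h1 : stepVal ℓ e = ℓ e.1 * ((e.2 : ℤ) : ℝ) := by
    simp only [stepVal, step]
    rw [Finset.sum_eq_single e.1]
    · simp
    · intro i _ hi
      simp [Pi.single_eq_of_ne hi]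
    · intro h
      exact absurd (Finset.mem_univ _) h
  have h2 : |((e.2 : ℤ) : ℝ)| = 1 := by
    rcases Int.units_eq_one_or e.2 with h | h <;> simp [h]
  rw [h1, abs_mul, h2, mul_one]
  exact Finset.single_le_sum (f := fun i => |ℓ i|) (fun i _ => abs_nonneg _) (Finset.mem_univ e.1)

lemma measurable_proj (ℓ : Fin d → ℝ) (n : ℕ) : Measurable (proj ℓ n) := by
  unfold proj
  refine Finset.measurable_sum _ (fun i _ => ?_)
  refine Measurable.const_mul ?_ _
  have h1 : Measurable (fun X : ℕ → Fin d → ℤ => X n i) :=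
    (measurable_pi_apply i).comp (measurable_pi_apply n)
  exact (measurable_from_top (f := fun z : ℤ => (z : ℝ))).comp h1

lemma ae_abs_proj_sub_le (hQ : IsQuenchedLaw ω Q) (hω : ∀ x, ω x ∈ stdSimplex ℝ (Fin d × Units ℤ))
    (ℓ : Fin d → ℝ) :
    ∀ᵐ X ∂Q, ∀ n, |proj ℓ (n + 1) X - proj ℓ n X| ≤ ∑ i, |ℓ i| := by
  filter_upwards [ae_step hQ hω] with X hX n
  obtain ⟨e, he⟩ := hX n
  rw [proj_succ_of_step ℓ n X (X n) e rfl he]
  exact abs_stepVal_le ℓ e

lemma ae_abs_proj_le (hQ : IsQuenchedLaw ω Q) (hω : ∀ x, ω x ∈ stdSimplex ℝ (Fin d × Units ℤ))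
    (ℓ : Fin d → ℝ) (n : ℕ) :
    ∀ᵐ X ∂Q, |proj ℓ n X| ≤ n * ∑ i, |ℓ i| := by
  filter_upwards [ae_abs_proj_sub_le hQ hω ℓ, ae_start hQ] with X hX h0
  induction n with
  | zero => simp [proj, h0]
  | succ k ih =>
    have h1 := hX k
    have h2 : |proj ℓ (k + 1) X| ≤ |proj ℓ (k + 1) X - proj ℓ k X| + |proj ℓ k X| := by
      have := abs_add_le (proj ℓ (k + 1) X - proj ℓ k X) (proj ℓ k X)
      simpa using this
    push_cast
    linarith

lemma integrable_proj (hQ : IsQuenchedLaw ω Q) (hω : ∀ x, ω x ∈ stdSimplex ℝ (Fin d × Units ℤ))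
    (ℓ : Fin d → ℝ) (n : ℕ) : Integrable (proj ℓ n) Q := by
  have := hQ.isProb
  refine Integrable.of_bound (measurable_proj ℓ n).aestronglyMeasurable (n * ∑ i, |ℓ i|) ?_
  filter_upwards [ae_abs_proj_le hQ hω ℓ n] with X hX
  simpa [Real.norm_eq_abs] using hX

end Vale.Agent.Lib.P147
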