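import Vale.Agent.Lib.P147.Quenched

namespace Vale.Agent.Lib.P147

open MeasureTheory Filter Topology

variable {d : ℕ} {ω : (Fin d → ℤ) → Fin d × Units ℤ → ℝ} {Q : Measure (ℕ → Fin d → ℤ)}

lemma setIntegral_cyl_sub (hQ : IsQuenchedLaw ω Q) (hω : ∀ x, ω x ∈ stdSimplex ℝ (Fin d × Units ℤ))
    (ℓ : Fin d → ℝ) (n : ℕ) (x : ℕ → Fin d → ℤ) :
    ∫ X in cyl n x, (proj ℓ (n + 1) X - proj ℓ n X) ∂Q =
      Q.real (cyl n x) * ∑ e, ω (x n) e * stepVal ℓ e := by
  have hint : Integrable (fun X => proj ℓ (n + 1) X - proj ℓ n X) Q :=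
    (integrable_proj hQ hω ℓ (n + 1)).sub (integrable_proj hQ hω ℓ n)
  rw [← setIntegral_congr_set (ae_eq_iUnion_cylStep hQ hω n x),
    integral_iUnion_fintype (measurableSet_cylStep n x) (cylStep_disjoint n x)
      (fun e => hint.integrableOn)]
  rw [Finset.mul_sum]
  refine Finset.sum_congr rfl (fun e _ => ?_)
  have h1 : ∫ X in cylStep n x e, (proj ℓ (n + 1) X - proj ℓ n X) ∂Q =
      ∫ X in cylStep n x e, stepVal ℓ e ∂Q := by
    refine setIntegral_congr_fun (measurableSet_cylStep n x e) ?_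
    intro X hX
    exact proj_succ_of_step ℓ n X (x n) e (hX.1 n le_rfl) hX.2
  rw [h1, setIntegral_const]
  have h2 : Q.real (cylStep n x e) = Q.real (cyl n x) * ω (x n) e := by
    have := hQ.trans n x e
    simp only [Measure.real]
    change (Q (cylStep n x e)).toReal = (Q (cyl n x)).toReal * ω (x n) e
    have h3 : Q (cylStep n x e) = Q (cyl n x) * ENNReal.ofReal (ω (x n) e) := this
    rw [h3, ENNReal.toReal_mul, ENNReal.toReal_ofReal ((hω (x n)).1 e)]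
  rw [h2, smul_eq_mul]
  ring

lemma setIntegral_cyl_le (hQ : IsQuenchedLaw ω Q) (hω : ∀ x, ω x ∈ stdSimplex ℝ (Fin d × Units ℤ))
    (ℓ : Fin d → ℝ) (hdrift : ∀ x, 0 ≤ ∑ e, ω x e * stepVal ℓ e) (n : ℕ) (x : ℕ → Fin d → ℤ) :
    ∫ X in cyl n x, proj ℓ n X ∂Q ≤ ∫ X in cyl n x, proj ℓ (n + 1) X ∂Q := by
  have h := setIntegral_cyl_sub hQ hω ℓ n x
  rw [integral_sub (integrable_proj hQ hω ℓ (n + 1)).integrableOn
    (integrable_proj hQ hω ℓ n).integrableOn] at h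
  have hnn : 0 ≤ Q.real (cyl n x) * ∑ e, ω (x n) e * stepVal ℓ e :=
    mul_nonneg measureReal_nonneg (hdrift (x n))
  linarith

lemma setIntegral_le_of_measurableSet_piLE (hQ : IsQuenchedLaw ω Q)
    (hω : ∀ x, ω x ∈ stdSimplex ℝ (Fin d × Units ℤ))
    (ℓ : Fin d → ℝ) (hdrift : ∀ x, 0 ≤ ∑ e, ω x e * stepVal ℓ e) (n : ℕ)
    (s : Set (ℕ → Fin d → ℤ))
    (hs : MeasurableSet[(Filtration.piLE (X := fun _ : ℕ => Fin d → ℤ)) n] s) :
    ∫ X in s, proj ℓ n X ∂Q ≤ ∫ X in s, proj ℓ (n + 1) X ∂Q := by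
  obtain ⟨B, -, rfl⟩ := MeasurableSpace.measurableSet_comap.1 hs
  have hs_eq : Preorder.restrictLe n ⁻¹' B = ⋃ b : B, cyl n (extPath n b.1) := by
    ext X
    simp only [Set.mem_preimage, Set.mem_iUnion, mem_cyl_extPath]
    constructor
    · intro h
      exact ⟨⟨_, h⟩, rfl⟩
    · rintro ⟨b, hb⟩
      rw [hb]
      exact b.2
  rw [hs_eq]
  have hdisj : Pairwise (Function.onFun Disjoint (fun b : B => cyl n (extPath n b.1))) := by
    intro b b' hbb
    rw [Function.onFun, Set.disjoint_left]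
    intro X h1 h2
    rw [mem_cyl_extPath] at h1 h2
    exact hbb (Subtype.ext (h1.symm.trans h2))
  have hmeas : ∀ b : B, MeasurableSet (cyl n (extPath n b.1)) := fun b => measurableSet_cyl n _
  have h1 := hasSum_integral_iUnion (f := proj ℓ n) (μ := Q) hmeas hdisj
    (integrable_proj hQ hω ℓ n).integrableOn
  have h2 := hasSum_integral_iUnion (f := proj ℓ (n + 1)) (μ := Q) hmeas hdisj
    (integrable_proj hQ hω ℓ (n + 1)).integrableOn
  exact hasSum_le (fun b => setIntegral_cyl_le hQ hω ℓ hdrift n _) h1 h2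

lemma stronglyAdapted_proj (ℓ : Fin d → ℝ) :
    StronglyAdapted (Filtration.piLE (X := fun _ : ℕ => Fin d → ℤ)) (proj ℓ) := by
  intro n
  have h1 : proj ℓ n = (fun b : (j : Set.Iic n) → Fin d → ℤ =>
      ∑ i, ℓ i * (b ⟨n, Set.mem_Iic.2 le_rfl⟩ i : ℝ)) ∘ Preorder.restrictLe n := by
    funext X
    rfl
  rw [h1]
  have h2 : Measurable[(Filtration.piLE (X := fun _ : ℕ => Fin d → ℤ)) n]
      ((fun b : (j : Set.Iic n) → Fin d → ℤ =>
      ∑ i, ℓ i * (b ⟨n, Set.mem_Iic.2 le_rfl⟩ i : ℝ)) ∘ Preorder.restrictLe n) :=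
    (measurable_of_countable _).comp (comap_measurable _)
  exact h2.stronglyMeasurable

theorem submartingale_proj (hQ : IsQuenchedLaw ω Q) (hω : ∀ x, ω x ∈ stdSimplex ℝ (Fin d × Units ℤ))
    (ℓ : Fin d → ℝ) (hdrift : ∀ x, 0 ≤ ∑ e, ω x e * stepVal ℓ e) :
    Submartingale (proj ℓ) (Filtration.piLE (X := fun _ : ℕ => Fin d → ℤ)) Q := by
  have := hQ.isProb
  exact submartingale_of_setIntegral_le_succ (stronglyAdapted_proj ℓ)
    (integrable_proj hQ hω ℓ)
    (fun n s hs => setIntegral_le_of_measurableSet_piLE hQ hω ℓ hdrift n s hs)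

/-- In an environment with nonnegative drift in direction `ℓ` at every site, the walk almost
surely does not tend to `-∞` in direction `ℓ`. -/
theorem quenched_not_atBot (hQ : IsQuenchedLaw ω Q) (hω : ∀ x, ω x ∈ stdSimplex ℝ (Fin d × Units ℤ))
    (ℓ : Fin d → ℝ) (hdrift : ∀ x, 0 ≤ ∑ e, ω x e * stepVal ℓ e) :
    Q {X | Tendsto (fun n => proj ℓ n X) atTop atBot} = 0 := by
  have := hQ.isProb
  have hsub := submartingale_proj hQ hω ℓ hdrift
  have hR : ∀ᵐ X ∂Q, ∀ n, |proj ℓ (n + 1) X - proj ℓ n X| ≤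
      ((⟨∑ i, |ℓ i|, Finset.sum_nonneg (fun i _ => abs_nonneg _)⟩ : NNReal) : ℝ) :=
    ae_abs_proj_sub_le hQ hω ℓ
  have hconv := hsub.bddAbove_iff_exists_tendsto hR
  rw [measure_eq_zero_iff_ae_notMem]
  filter_upwards [hconv] with X hX hmem
  have hbdd : BddAbove (Set.range fun n => proj ℓ n X) := by
    have hev : ∀ᶠ n in atTop, proj ℓ n X ≤ 0 := hmem.eventually (eventually_le_atBot 0)
    obtain ⟨N, hN⟩ := eventually_atTop.1 hev
    have hfin : BddAbove ((fun n => proj ℓ n X) '' (Set.Iio N)) :=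
      (Set.finite_Iio N).image _ |>.bddAbove
    obtain ⟨c, hc⟩ := hfin
    refine ⟨max c 0, ?_⟩
    rintro _ ⟨n, rfl⟩
    by_cases hn : n < N
    · exact le_max_of_le_left (hc ⟨n, hn, rfl⟩)
    · exact le_max_of_le_right (hN n (not_lt.1 hn))
  obtain ⟨c, hc⟩ := hX.1 hbdd
  exact not_tendsto_nhds_of_tendsto_atBot hmem c hc

end Vale.Agent.Lib.P147
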